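import Vale.Agent.Lib.P340.Compact

namespace Vale.Agent.Results.P340.A_FiniteSorts

open Vale.Agent.Lib.P340

/-- The Barendregt-Geuvers-Klop conjecture for all pure type systems is equivalent to the
conjecture for pure type systems with finitely many sorts. -/
theorem result :
    (∀ (S : Type) (Ax : S → S → Prop) (Ru : S → S → S → Prop),
      WeaklyNormalizing Ax Ru → StronglyNormalizing Ax Ru) ↔
    (∀ (S : Type) [Finite S] (Ax : S → S → Prop) (Ru : S → S → S → Prop),
      WeaklyNormalizing Ax Ru → StronglyNormalizing Ax Ru) :=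
  ⟨fun h S _ Ax Ru => h S Ax Ru, fun h S Ax Ru => reduce_to_finite h S Ax Ru⟩

end Vale.Agent.Results.P340.A_FiniteSorts
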